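import Vale.Agent.P207.N4.Dim
import Vale.Agent.P207.N4.H395.HolFr
import Vale.Agent.P207.N4.H728.Hol
import Vale.Agent.P207.N4.H709.Axis

/-!
# P207, line N3, row R9 (B): the stable holonomy of frames, as a map

`FrLn`: frames over the lines of a Hadamard space (728's `Had`, 395's `FrFl`), with a cocompact
group.  `T.holf ξ x` is the frame `y` with `em y = ξ` which is positively asymptotic to `x`; all
the fields `hol_*` of `Leaf` are proved here.
-/

open Set Filter Topology Metric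
open Vale.Agent.P207.N4.H395 Vale.Agent.P207.N3.H395 Vale.Agent.P207.N4.H728 Vale.Agent.P207.N3.H728 Vale.Agent.P207.N4.H709 Vale.Agent.P207.N3.H709

noncomputable section

namespace Vale.Agent.P207.N4.H460

open Vale.Agent.P207.N3 Vale.Agent.P207.N3.H460

variable [Dim]

section Unif

variable {Γ X X' : Type*} [Group Γ] [MetricSpace X] [ProperSpace X] [MetricSpace X']
  [MulAction Γ X] [IsIsometricSMul Γ X] [MulAction Γ X'] [IsIsometricSMul Γ X']

/-- Continuous equivariant maps are uniformly continuous. -/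
theorem unif (hco : ∃ K : Set X, IsCompact K ∧ ∀ x, ∃ g : Γ, g • x ∈ K) {F : X → X'}
    (hF : Continuous F) (hg : ∀ (g : Γ) x, F (g • x) = g • F x) : UniformContinuous F := by
  obtain ⟨K, hK, hKc⟩ := hco
  have hK1 : IsCompact (cthickening 1 K) := hK.cthickening
  have h1 := hK1.uniformContinuousOn_of_continuous hF.continuousOn
  rw [Metric.uniformContinuousOn_iff] at h1
  rw [Metric.uniformContinuous_iff]
  intro ε hε
  obtain ⟨δ, hδ, h2⟩ := h1 ε hε
  refine ⟨min δ 1, lt_min hδ one_pos, fun {a b} hab => ?_⟩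
  obtain ⟨g, hga⟩ := hKc a
  have h3 : dist (g • a) (g • b) = dist a b := dist_smul _ _ _
  have h4 : g • b ∈ cthickening 1 K :=
    mem_cthickening_of_dist_le _ _ _ _ hga (by
      rw [dist_comm, h3]; exact (hab.trans_le (min_le_right _ _)).le)
  have h5 := h2 (g • a) (self_subset_cthickening K hga) (g • b) h4 (by
    rw [h3]; exact hab.trans_le (min_le_left _ _))
  rwa [hg, hg, dist_smul] at h5

end Unif

/-- Frames over the lines of the Hadamard space `Y`. -/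
structure FrLn {Y : Type} [MetricSpace Y] [ProperSpace Y] (H : Had Y) (Γ X : Type) [Group Γ]
    [MetricSpace X] [ProperSpace X] [MulAction Γ X] [IsIsometricSMul Γ X] [MulAction Γ Y]
    [IsIsometricSMul Γ Y] where
  /-- frames over lines, with the metric facts -/
  S : FrFl X (Ln Y)
  ψ_eq : ∀ t c, S.ψ t c = Ln.φ t c
  D_le : ∀ c c', S.D c c' ≤ dist (c 0) (c' 0) + dist (c 1) (c' 1)
  φ_cont : Continuous fun q : ℝ × X => S.φ q.1 q.2
  φ_smul : ∀ (g : Γ) t x, S.φ t (g • x) = g • S.φ t x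
  rot_cont : ∀ a, Continuous (S.rot a)
  rot_smul : ∀ (g : Γ) a x, S.rot a (g • x) = g • S.rot a x
  p_cont : Continuous S.p
  p_smul : ∀ (g : Γ) x, S.p (g • x) = g • S.p x
  cocompact : ∃ K : Set X, IsCompact K ∧ ∀ x, ∃ g : Γ, g • x ∈ K

namespace FrLn

variable {Y : Type} [MetricSpace Y] [ProperSpace Y] {H : Had Y} {Γ X : Type} [Group Γ]
  [MetricSpace X] [ProperSpace X] [MulAction Γ X] [IsIsometricSMul Γ X] [MulAction Γ Y]
  [IsIsometricSMul Γ Y]

variable (T : FrLn H Γ X) {o : Y}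

/-- the frame flow -/
abbrev φ : ℝ → X → X := T.S.φ
/-- the line of the frame -/
abbrev p : X → Ln Y := T.S.p
/-- rotations of the frame -/
abbrev rot : O2 → X → X := T.S.rot

theorem p_φ (t : ℝ) (x : X) : T.p (T.φ t x) = (T.p x).φ t := by
  rw [← T.ψ_eq]; exact T.S.p_φ t x

theorem p_rot (a : O2) (x : X) : T.p (T.rot a x) = T.p x := T.S.p_rot a x

theorem φ_cont' (t : ℝ) : Continuous (T.φ t) :=
  T.φ_cont.comp (Continuous.prodMk_right t)

theorem vec_rate {c c' : Ln Y} {C χ : ℝ} (hC : 0 ≤ C) (hχ : χ ≤ H.a)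
    (h : ∀ s, 0 ≤ s → dist (c s) (c' s) ≤ C * Real.exp (-(H.a * s))) (t : ℝ) (ht : 0 ≤ t) :
    T.S.D (T.S.ψ t c) (T.S.ψ t c') ≤ 2 * C * Real.exp (-χ * t) := by
  have h1 : ∀ s : ℝ, t ≤ s → dist (c s) (c' s) ≤ C * Real.exp (-χ * t) := by
    intro s hs
    refine (h s (ht.trans hs)).trans (mul_le_mul_of_nonneg_left (Real.exp_le_exp.2 ?_) hC)
    have h2 : χ * t ≤ H.a * s := by
      calc χ * t ≤ H.a * t := mul_le_mul_of_nonneg_right hχ ht
        _ ≤ H.a * s := mul_le_mul_of_nonneg_left hs H.a_pos.le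
    linarith
  rw [T.ψ_eq, T.ψ_eq]
  refine (T.D_le _ _).trans ?_
  simp only [Ln.φ_apply]
  have h2 := h1 (0 + t) (by linarith)
  have h3 := h1 (1 + t) (by linarith)
  linarith

/-- existence, uniformly on compact sets -/
theorem exists_hol {K : Set (Bd o × X)} (hK : IsCompact K)
    (hd : ∀ q ∈ K, q.1 ≠ H.ep o (T.p q.2)) {χ : ℝ} (hχ : 0 < χ) (hχa : χ ≤ H.a) :
    ∃ C, ∀ q ∈ K, ∃ y, T.p y = H.hol q.1 (T.p q.2) ∧
      ∀ t : ℝ, 0 ≤ t → dist (T.φ t q.2) (T.φ t y) ≤ C * Real.exp (-χ * t) := by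
  have hK' : IsCompact ((fun q : Bd o × X => (q.1, T.p q.2)) '' K) :=
    hK.image (continuous_fst.prodMk (T.p_cont.comp continuous_snd))
  obtain ⟨C, hC, h1⟩ := H.hol_asym hK' (by
    rintro _ ⟨q, hq, rfl⟩
    exact hd q hq)
  obtain ⟨C', -, h2⟩ := T.S.exists_asym (C := 2 * C) (χ := χ) (by positivity) hχ
  refine ⟨C', fun q hq => ?_⟩
  exact h2 q.2 (H.hol q.1 (T.p q.2)) fun t ht =>
    T.vec_rate hC hχa (fun s hs => h1 _ ⟨q, hq, rfl⟩ s hs) t ht

theorem tendsto_of_rate {x y : X} {C χ : ℝ} (hχ : 0 < χ)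
    (h : ∀ t : ℝ, 0 ≤ t → dist (T.φ t x) (T.φ t y) ≤ C * Real.exp (-χ * t)) :
    Tendsto (fun t : ℝ => dist (T.φ t x) (T.φ t y)) atTop (𝓝 0) := by
  have h1 : Tendsto (fun t : ℝ => C * Real.exp (-χ * t)) atTop (𝓝 (C * 0)) := by
    refine Tendsto.const_mul C (Real.tendsto_exp_atBot.comp ?_)
    exact (tendsto_const_mul_atBot_of_neg (neg_lt_zero.2 hχ)).2 tendsto_id
  rw [mul_zero] at h1
  refine squeeze_zero' (Filter.Eventually.of_forall fun t => dist_nonneg) ?_ h1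
  filter_upwards [eventually_ge_atTop (0 : ℝ)] with t ht
  exact h t ht

theorem exists_hol_one {ξ : Bd o} {x : X} (h : ξ ≠ H.ep o (T.p x)) :
    ∃ y, T.p y = H.hol ξ (T.p x) ∧
      Tendsto (fun t : ℝ => dist (T.φ t x) (T.φ t y)) atTop (𝓝 0) := by
  obtain ⟨C, hC⟩ := T.exists_hol (K := {(ξ, x)}) isCompact_singleton (by
    rintro q rfl; exact h) H.a_pos le_rfl
  obtain ⟨y, hy, hy'⟩ := hC (ξ, x) rfl
  exact ⟨y, hy, T.tendsto_of_rate H.a_pos hy'⟩

open Classical in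
/-- **the stable holonomy of frames** -/
def holf (ξ : Bd o) (x : X) : X :=
  if h : ξ ≠ H.ep o (T.p x) then (T.exists_hol_one h).choose else x

theorem holf_spec {ξ : Bd o} {x : X} (h : ξ ≠ H.ep o (T.p x)) :
    T.p (T.holf ξ x) = H.hol ξ (T.p x) ∧
      Tendsto (fun t : ℝ => dist (T.φ t x) (T.φ t (T.holf ξ x))) atTop (𝓝 0) := by
  unfold holf
  rw [dif_pos h]
  exact (T.exists_hol_one h).choose_spec

theorem p_holf {ξ : Bd o} {x : X} (h : ξ ≠ H.ep o (T.p x)) :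
    T.p (T.holf ξ x) = H.hol ξ (T.p x) := (T.holf_spec h).1

theorem tendsto_holf {ξ : Bd o} {x : X} (h : ξ ≠ H.ep o (T.p x)) :
    Tendsto (fun t : ℝ => dist (T.φ t x) (T.φ t (T.holf ξ x))) atTop (𝓝 0) := (T.holf_spec h).2

theorem eq_holf {ξ : Bd o} {x y : X} (h : ξ ≠ H.ep o (T.p x)) (hp : T.p y = H.hol ξ (T.p x))
    (hy : Tendsto (fun t : ℝ => dist (T.φ t x) (T.φ t y)) atTop (𝓝 0)) : T.holf ξ x = y :=
  T.S.unique ((T.p_holf h).trans hp.symm) (T.tendsto_holf h) hy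

/-! ### The fields of `Leaf` -/

theorem hol_em (ξ : Bd o) (x : X) (h : ξ ≠ H.ep o (T.p x)) : H.em o (T.p (T.holf ξ x)) = ξ := by
  rw [T.p_holf h, H.em_hol h]

theorem hol_ep (ξ : Bd o) (x : X) (h : ξ ≠ H.ep o (T.p x)) :
    H.ep o (T.p (T.holf ξ x)) = H.ep o (T.p x) := by
  rw [T.p_holf h, H.ep_hol h]

theorem hol_lp (ξ : Bd o) (x : X) (h : ξ ≠ H.ep o (T.p x)) :
    H.lvl o (T.p (T.holf ξ x)).flip = H.lvl o (T.p x).flip := by
  rw [T.p_holf h, H.lvl_flip_hol h]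

theorem hol_self (x : X) : T.holf (H.em o (T.p x)) x = x := by
  refine T.eq_holf (H.em_ne_ep o _) (H.hol_self _).symm ?_
  simp only [dist_self]
  exact tendsto_const_nhds

theorem hol_hol (ξ ξ' : Bd o) (x : X) (h : ξ ≠ H.ep o (T.p x)) (h' : ξ' ≠ H.ep o (T.p x)) :
    T.holf ξ' (T.holf ξ x) = T.holf ξ' x := by
  have h'' : ξ' ≠ H.ep o (T.p (T.holf ξ x)) := by rwa [T.hol_ep ξ x h]
  symm
  refine T.eq_holf h' ?_ ?_
  · rw [T.p_holf h'', T.p_holf h, H.hol_hol h h']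
  · have h1 := (T.tendsto_holf h).add (T.tendsto_holf h'')
    rw [add_zero] at h1
    exact squeeze_zero (fun t => dist_nonneg) (fun t => dist_triangle _ _ _) h1

theorem hol_φ (t : ℝ) (ξ : Bd o) (x : X) (h : ξ ≠ H.ep o (T.p x)) :
    T.holf ξ (T.φ t x) = T.φ t (T.holf ξ x) := by
  have h' : ξ ≠ H.ep o (T.p (T.φ t x)) := by rwa [T.p_φ, H.ep_φ]
  refine T.eq_holf h' ?_ ?_
  · rw [T.p_φ, T.p_φ, T.p_holf h, H.hol_φ t h]
  · have h1 := (T.tendsto_holf h).comp (tendsto_atTop_add_const_right atTop t tendsto_id)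
    refine h1.congr fun s => ?_
    change dist (T.S.φ (s + t) x) (T.S.φ (s + t) (T.holf ξ x)) = _
    rw [T.S.φ_add, T.S.φ_add]

theorem uc_rot (a : O2) : UniformContinuous (T.rot a) :=
  unif T.cocompact (T.rot_cont a) fun g x => T.rot_smul g a x

omit [ProperSpace X] in
/-- a uniformly continuous map does not destroy asymptoticity -/
theorem tendsto_uc {F : X → X} (hF : UniformContinuous F) {u v : ℝ → X}
    (h : Tendsto (fun t : ℝ => dist (u t) (v t)) atTop (𝓝 0)) :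
    Tendsto (fun t : ℝ => dist (F (u t)) (F (v t))) atTop (𝓝 0) := by
  rw [Metric.tendsto_nhds]
  intro ε hε
  obtain ⟨δ, hδ, h1⟩ := Metric.uniformContinuous_iff.1 hF ε hε
  filter_upwards [h.eventually_lt_const hδ] with t ht
  rw [Real.dist_0_eq_abs, abs_of_nonneg dist_nonneg]
  exact h1 ht

theorem hol_rot (a : O2) (ξ : Bd o) (x : X) (h : ξ ≠ H.ep o (T.p x)) :
    T.holf ξ (T.rot a x) = T.rot a (T.holf ξ x) := by
  have h' : ξ ≠ H.ep o (T.p (T.rot a x)) := by rwa [T.p_rot]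
  refine T.eq_holf h' ?_ ?_
  · rw [T.p_rot, T.p_rot, T.p_holf h]
  · have h1 := tendsto_uc (T.uc_rot a) (T.tendsto_holf h)
    refine h1.congr fun s => ?_
    change dist (T.S.rot a (T.S.φ s x)) (T.S.rot a (T.S.φ s (T.holf ξ x))) = _
    rw [T.S.rot_φ, T.S.rot_φ]

/-- equivariance, from the equivariance of the holonomy of lines -/
theorem hol_smul_of (g : Γ) {ξ ξ' : Bd o} {x : X} (h : ξ ≠ H.ep o (T.p x))
    (h' : ξ' ≠ H.ep o (g • T.p x)) (he : H.hol ξ' (g • T.p x) = g • H.hol ξ (T.p x)) :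
    T.holf ξ' (g • x) = g • T.holf ξ x := by
  have h'' : ξ' ≠ H.ep o (T.p (g • x)) := by
    change ξ' ≠ H.ep o (T.S.p (g • x))
    rwa [T.p_smul]
  refine T.eq_holf h'' ?_ ?_
  · change T.S.p _ = H.hol ξ' (T.S.p _)
    rw [T.p_smul, T.p_smul]
    change g • T.p _ = _
    rw [T.p_holf h]
    exact he.symm
  · refine (T.tendsto_holf h).congr fun s => ?_
    change _ = dist (T.S.φ s (g • x)) (T.S.φ s (g • T.holf ξ x))
    rw [T.φ_smul, T.φ_smul, dist_smul]

theorem hol_asym (K : Set (Bd o × X)) (hK : IsCompact K)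
    (hd : ∀ q ∈ K, q.1 ≠ H.ep o (T.p q.2)) {χ : ℝ} (hχ : 0 < χ) (hχa : χ ≤ H.a) :
    ∃ C, ∀ q ∈ K, ∀ t ≥ (0 : ℝ),
      dist (T.φ t q.2) (T.φ t (T.holf q.1 q.2)) ≤ C * Real.exp (-χ * t) := by
  obtain ⟨C, hC⟩ := T.exists_hol hK hd hχ hχa
  refine ⟨C, fun q hq t ht => ?_⟩
  obtain ⟨y, hy, hy'⟩ := hC q hq
  rw [T.eq_holf (hd q hq) hy (T.tendsto_of_rate hχ hy')]
  exact hy' t ht

theorem isOpen_ne : IsOpen {q : Bd o × X | q.1 ≠ H.ep o (T.p q.2)} :=
  isOpen_ne_fun continuous_fst ((H.continuous_ep o).comp (T.p_cont.comp continuous_snd))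

theorem hol_cont : ContinuousOn (fun q : Bd o × X => T.holf q.1 q.2)
    {q | q.1 ≠ H.ep o (T.p q.2)} := by
  intro q hq
  refine ContinuousAt.continuousWithinAt ?_
  obtain ⟨K, hK, hKs, hKc⟩ := local_compact_nhds (T.isOpen_ne.mem_nhds hq)
  obtain ⟨C, hC⟩ := T.hol_asym K hKc (fun r hr => hKs hr) H.a_pos le_rfl
  rw [ContinuousAt, tendsto_iff_ultrafilter]
  intro U hU
  have hKU : ∀ᶠ r in (U : Filter (Bd o × X)), r ∈ K := hU hK
  have h2 : Tendsto (fun r : Bd o × X => r.2) U (𝓝 q.2) :=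
    (continuous_snd.tendsto q).mono_left hU
  have hb : ∀ᶠ r in (U : Filter (Bd o × X)), T.holf r.1 r.2 ∈ closedBall q.2 (C + 1) := by
    have h3 : ∀ᶠ r in (U : Filter (Bd o × X)), r.2 ∈ ball q.2 1 := h2 (ball_mem_nhds _ one_pos)
    filter_upwards [hKU, h3] with r hr hr1
    have h4 := hC r hr 0 le_rfl
    change dist (T.S.φ 0 _) (T.S.φ 0 _) ≤ _ at h4
    rw [T.S.φ_zero, T.S.φ_zero, mul_zero, Real.exp_zero, mul_one] at h4
    rw [mem_closedBall]
    calc dist (T.holf r.1 r.2) q.2 ≤ dist (T.holf r.1 r.2) r.2 + dist r.2 q.2 :=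
          dist_triangle _ _ _
      _ ≤ C + 1 := add_le_add (by rw [dist_comm]; exact h4) (mem_ball.1 hr1).le
  obtain ⟨y, -, hy⟩ := (isCompact_closedBall q.2 (C + 1)).ultrafilter_le_nhds
    (U.map fun r : Bd o × X => T.holf r.1 r.2) (le_principal_iff.2 hb)
  have hy' : Tendsto (fun r : Bd o × X => T.holf r.1 r.2) U (𝓝 y) := hy
  suffices h : T.holf q.1 q.2 = y by
    rw [h]; exact hy'
  refine T.eq_holf hq ?_ (T.tendsto_of_rate (C := C) H.a_pos fun t ht => ?_)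
  · have h5 : Tendsto (fun r : Bd o × X => T.p (T.holf r.1 r.2)) U (𝓝 (T.p y)) :=
      (T.p_cont.tendsto y).comp hy'
    have h6 : ContinuousAt (fun r : Bd o × X => H.hol r.1 (T.p r.2)) q := by
      have h7 : Continuous fun r : Bd o × X => (r.1, T.p r.2) :=
        continuous_fst.prodMk (T.p_cont.comp continuous_snd)
      exact ContinuousAt.comp (f := fun r : Bd o × X => (r.1, T.p r.2))
        (g := fun p : Bd o × Ln Y => H.hol p.1 p.2) (H.continuousAt_hol hq) h7.continuousAt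
    refine tendsto_nhds_unique h5 ((Tendsto.mono_left h6 hU).congr' ?_)
    filter_upwards [hKU] with r hr
    exact (T.p_holf (hKs hr)).symm
  · have h8 : Tendsto (fun r : Bd o × X => dist (T.φ t r.2) (T.φ t (T.holf r.1 r.2))) U
        (𝓝 (dist (T.φ t q.2) (T.φ t y))) :=
      (((T.φ_cont' t).tendsto _).comp h2).dist (((T.φ_cont' t).tendsto _).comp hy')
    refine le_of_tendsto h8 ?_
    filter_upwards [hKU] with r hr
    exact hC r hr t ht

end FrLn

end Vale.Agent.P207.N4.H460
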