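import Vale.Agent.P207.N4.Dim
import Vale.Agent.P207.N4.H460.GeoHol

/-!
# P207, line N3, row R16: `MF G` from elementary metric facts

`MF0 G`: the foot point map, the action of the orthogonal group and the frame flow are locally
Lipschitz; the orbits of the orthogonal group are bi-Lipschitz; the exponential map expands.
`MF0.mf : MF0 G → MF G`.
-/

open Set Filter Topology Metric
open Vale.Agent.P207.N4.H395 Vale.Agent.P207.N3.H395 Vale.Agent.P207.N4.H728 Vale.Agent.P207.N3.H728 Vale.Agent.P207.N4.H709 Vale.Agent.P207.N3.H709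
open Vale.Agent.P207.N4.H76 Vale.Agent.P207.N3.H76

noncomputable section

namespace Vale.Agent.P207.N4.H460

open Vale.Agent.P207.N3 Vale.Agent.P207.N3.H460

variable [Dim]

/-! ### the orthogonal group of the space -/

/-- an orthogonal map as an operator -/
def op3 (A : O3) : E3 →L[ℝ] E3 := (A.toContinuousLinearEquiv : E3 →L[ℝ] E3)

theorem op3_apply (A : O3) (u : E3) : op3 A u = A u := rfl

theorem op3_one : op3 1 = ContinuousLinearMap.id ℝ E3 := rfl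

theorem norm_sub_le (A : O3) (u : E3) : ‖A u - u‖ ≤ ‖op3 A - op3 1‖ * ‖u‖ :=
  (op3 A - op3 1).le_opNorm u

theorem norm_op3_le {A : O3} {C : ℝ} (hC : 0 ≤ C) (h : ∀ u, ‖A u - u‖ ≤ C * ‖u‖) :
    ‖op3 A - op3 1‖ ≤ C := ContinuousLinearMap.opNorm_le_bound _ hC h

theorem norm_tl_le (v : E3) : ‖tl v‖ ≤ ‖v‖ := by
  have h := H76.norm_sq v
  nlinarith [norm_nonneg v, norm_nonneg (tl v), sq_nonneg (v 0), abs_nonneg (‖v‖ - ‖tl v‖)]

theorem pk_sub (s t : ℝ) (u v : E2) : pk s u - pk t v = pk (s - t) (u - v) :=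
  (pkL.map_sub (s, u) (t, v)).symm

theorem norm_ext_sub (a : O2) : ‖op3 (H76.ext a) - op3 1‖ ≤ ‖op a - op 1‖ := by
  refine norm_op3_le (norm_nonneg _) fun v => ?_
  have h1 : H76.ext a v - v = pk 0 (a (tl v) - tl v) := by
    have h0 : H76.ext a v - pk (v 0) (tl v) = pk 0 (a (tl v) - tl v) := by
      rw [ext_apply, pk_sub, sub_self]
    rwa [pk_tl] at h0
  rw [h1, norm_pk_zero_left]
  refine ((op a - op 1).le_opNorm (tl v)).trans ?_
  exact mul_le_mul_of_nonneg_left (norm_tl_le v) (norm_nonneg _)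

theorem norm_ext_sub' (a : O2) : ‖op a - op 1‖ ≤ ‖op3 (H76.ext a) - op3 1‖ := by
  refine ContinuousLinearMap.opNorm_le_bound _ (norm_nonneg _) fun u => ?_
  have h := norm_sub_le (H76.ext a) (pk 0 u)
  rw [ext_pk, norm_pk_zero_left] at h
  have h1 : pk 0 (a u) - pk 0 u = pk 0 (a u - u) := by
    rw [pk_sub, sub_self]
  rwa [h1, norm_pk_zero_left] at h

/-- a rotation which moves `e0` to a unit vector close to `e0` and is close to `1` -/
theorem exists_rot_near {u : E3} (hu : ‖u‖ = 1) (h : ‖u - e0‖ ≤ 1) :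
    ∃ A : O3, A e0 = u ∧ ‖op3 A - op3 1‖ ≤ 8 * ‖u - e0‖ := by
  set d : ℝ := ‖u - e0‖ with hd
  have hd0 : 0 ≤ d := norm_nonneg _
  set w : E3 := u + e0 with hw
  have hw1 : ‖w - (2 : ℝ) • e0‖ = d := by
    rw [hw, hd, two_smul]
    congr 1
    abel
  have hw2 : |‖w‖ - 2| ≤ d := by
    have h1 := abs_norm_sub_norm_le w ((2 : ℝ) • e0)
    rw [hw1, norm_smul, norm_e0] at h1
    simpa using h1
  have hw3 : 1 ≤ ‖w‖ := by
    have := abs_le.1 hw2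
    linarith
  have hw0 : ‖w‖ ≠ 0 := by linarith
  set n : E3 := ‖w‖⁻¹ • w with hn
  have hn1 : ‖n‖ = 1 := by rw [hn, norm_smul, norm_inv, norm_norm, inv_mul_cancel₀ hw0]
  have hn2 : ‖n - e0‖ ≤ 2 * d := by
    have h2 : n - e0 = ‖w‖⁻¹ • (w - (2 : ℝ) • e0) + (‖w‖⁻¹ * (2 - ‖w‖)) • e0 := by
      rw [hn, smul_sub, smul_smul, mul_sub, inv_mul_cancel₀ hw0, sub_smul, one_smul]
      abel
    have h3 : ‖w‖⁻¹ ≤ 1 := inv_le_one_of_one_le₀ hw3
    have h4 : 0 ≤ ‖w‖⁻¹ := inv_nonneg.2 (norm_nonneg _)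
    calc ‖n - e0‖ ≤ ‖‖w‖⁻¹ • (w - (2 : ℝ) • e0)‖ + ‖(‖w‖⁻¹ * (2 - ‖w‖)) • e0‖ := by
          rw [h2]; exact norm_add_le _ _
      _ = ‖w‖⁻¹ * d + ‖w‖⁻¹ * |‖w‖ - 2| := by
          rw [norm_smul, norm_smul, hw1, norm_e0, mul_one, norm_inv, norm_norm, norm_mul,
            norm_inv, norm_norm, Real.norm_eq_abs (2 - ‖w‖), abs_sub_comm]
      _ ≤ 1 * d + 1 * d := add_le_add (mul_le_mul_of_nonneg_right h3 hd0)
          (mul_le_mul h3 hw2 (abs_nonneg _) zero_le_one)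
      _ = 2 * d := by ring
  have hrefl : ∀ v : E3, (Submodule.reflection (ℝ ∙ n)ᗮ) v = v - (2 * inner ℝ n v) • n := by
    intro v
    rw [Submodule.reflection_orthogonal_apply, Submodule.reflection_singleton_apply, hn1]
    simp only [RCLike.ofReal_real_eq_id, id, one_pow, div_one]
    rw [two_smul, mul_comm, mul_two, add_smul]
    abel
  have hsg : ∀ v : E3, sg v = v - (2 * inner ℝ e0 v) • e0 := by
    intro v
    have h0 : inner ℝ e0 v = v 0 := by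
      rw [real_inner_comm, e0, PiLp.inner_apply, Fin.sum_univ_succ]
      simp
    rw [h0, sg_apply]
    conv_rhs => rw [← pk_tl v, ← pk_zero_right]
    ext i
    refine Fin.cases ?_ (fun j => ?_) i
    · simp
      ring
    · simp
  refine ⟨Submodule.reflection (ℝ ∙ n)ᗮ * sg, ?_, ?_⟩
  · change (Submodule.reflection (ℝ ∙ n)ᗮ) (sg e0) = u
    rw [sg_e0, map_neg, hrefl]
    have h5 : inner ℝ w e0 = ‖w‖ ^ 2 / 2 := by
      have h6 : ‖w‖ ^ 2 = inner ℝ w w := (real_inner_self_eq_norm_sq w).symm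
      have h7 : inner ℝ w w = 2 * inner ℝ w e0 := by
        have h8 : inner ℝ u u = 1 := by rw [real_inner_self_eq_norm_sq, hu]; norm_num
        have h9 : inner ℝ e0 e0 = (1 : ℝ) := by rw [real_inner_self_eq_norm_sq, norm_e0]; norm_num
        rw [hw]
        simp only [inner_add_left, inner_add_right]
        rw [h8, h9, real_inner_comm u e0]
        ring
      rw [h6, h7]
      ring
    have h10 : inner ℝ n e0 = ‖w‖ / 2 := by
      rw [hn, real_inner_smul_left, h5]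
      field_simp
    rw [h10, hn, smul_smul]
    have h11 : 2 * (‖w‖ / 2) * ‖w‖⁻¹ = 1 := by field_simp
    rw [h11, one_smul, hw]
    abel
  · refine norm_op3_le (by positivity) fun v => ?_
    change ‖(Submodule.reflection (ℝ ∙ n)ᗮ) (sg v) - v‖ ≤ _
    have h12 : v = sg (sg v) := by
      have := congrArg (fun A : O3 => A v) sg_mul_sg
      exact this.symm
    have h13 : ‖sg v‖ = ‖v‖ := sg.norm_map v
    rw [← h13]
    set v' := sg v with hv'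
    rw [h12, hrefl, hsg v']
    have h14 : v' - (2 * inner ℝ n v') • n - (v' - (2 * inner ℝ e0 v') • e0) =
        -((2 * inner ℝ (n - e0) v') • n + (2 * inner ℝ e0 v') • (n - e0)) := by
      rw [inner_sub_left, smul_sub, mul_sub, sub_smul]
      abel
    rw [h14, norm_neg]
    refine (norm_add_le _ _).trans ?_
    rw [norm_smul _ n, norm_smul _ (n - e0), hn1, mul_one, norm_mul, norm_mul]
    have h15 := abs_real_inner_le_norm (n - e0) v'
    have h16 := abs_real_inner_le_norm e0 v'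
    rw [norm_e0, one_mul] at h16
    have h17 : ‖(2 : ℝ)‖ = 2 := by norm_num
    rw [h17, Real.norm_eq_abs, Real.norm_eq_abs]
    have h18 : ‖n - e0‖ * ‖v'‖ ≤ 2 * d * ‖v'‖ := mul_le_mul_of_nonneg_right hn2 (norm_nonneg _)
    have h19 : |inner ℝ e0 v'| * ‖n - e0‖ ≤ ‖v'‖ * (2 * d) :=
      mul_le_mul h16 hn2 (norm_nonneg _) (norm_nonneg _)
    nlinarith

/-! ### the elementary facts -/

variable {Γ X Y : Type} [Group Γ] [MetricSpace X] [ProperSpace X] [MetricSpace Y]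
  [ProperSpace Y] [MulAction Γ X] [MulAction Γ Y] [IsIsometricSMul Γ X] [IsIsometricSMul Γ Y]

/-- **Elementary metric facts of the frame bundle.** -/
structure MF0 (G : Geo Γ X Y) : Prop where
  ft_lip : ∃ ε : ℝ, 0 < ε ∧ ∃ L : ℝ, ∀ x y, dist x y ≤ ε →
    dist (G.ft x) (G.ft y) ≤ L * dist x y
  act_lip : ∃ ε : ℝ, 0 < ε ∧ ∃ L : ℝ, ∀ A x y, dist x y ≤ ε →
    dist (G.act A x) (G.act A y) ≤ L * dist x y
  flow_lip : ∃ ε : ℝ, 0 < ε ∧ ∃ L : ℝ, ∀ t ∈ Icc (0 : ℝ) 1, ∀ x y, dist x y ≤ ε →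
    dist (G.φ t x) (G.φ t y) ≤ L * dist x y
  speed : ∃ ε : ℝ, 0 < ε ∧ ∃ L : ℝ, ∀ t ∈ Icc (0 : ℝ) ε, ∀ x, dist (G.φ t x) x ≤ L * t
  act_up : ∃ ε : ℝ, 0 < ε ∧ ∃ L : ℝ, ∀ A x, ‖op3 A - op3 1‖ ≤ ε →
    dist (G.act A x) x ≤ L * ‖op3 A - op3 1‖
  act_low : ∃ ε : ℝ, 0 < ε ∧ ∃ L : ℝ, ∀ A x, dist (G.act A x) x ≤ ε →
    ‖op3 A - op3 1‖ ≤ L * dist (G.act A x) x
  exp : ∀ x u u', ‖u - u'‖ ≤ dist (G.E x u) (G.E x u')

namespace MF0

variable {G : Geo Γ X Y}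

/-- frames over nearby lines -/
theorem near (F : MF0 G) : ∃ ε : ℝ, 0 < ε ∧ ∃ L : ℝ, ∀ x (c : Ln Y), DL (G.p x) c ≤ ε →
    ∃ y, G.p y = c ∧ dist x y ≤ L * DL (G.p x) c := by
  obtain ⟨ε₁, hε₁, L₁', hL₁'⟩ := F.ft_lip
  obtain ⟨ε₂, hε₂, L₂', hL₂'⟩ := F.act_lip
  obtain ⟨ε₃, hε₃, L₃', hL₃'⟩ := F.flow_lip
  obtain ⟨ε₄, hε₄, L₄', hL₄'⟩ := F.speed
  obtain ⟨ε₅, hε₅, L₅', hL₅'⟩ := F.act_up
  -- positive constants
  obtain ⟨L₁, hp1, hL₁⟩ : ∃ L₁ : ℝ, 0 < L₁ ∧ ∀ x y, dist x y ≤ ε₁ →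
      dist (G.ft x) (G.ft y) ≤ L₁ * dist x y := by
    refine ⟨|L₁'| + 1, by positivity, fun x y h => (hL₁' x y h).trans ?_⟩
    exact mul_le_mul_of_nonneg_right (by linarith [le_abs_self L₁']) dist_nonneg
  obtain ⟨L₂, hp2, hL₂⟩ : ∃ L₂ : ℝ, 0 < L₂ ∧ ∀ A x y, dist x y ≤ ε₂ →
      dist (G.act A x) (G.act A y) ≤ L₂ * dist x y := by
    refine ⟨|L₂'| + 1, by positivity, fun A x y h => (hL₂' A x y h).trans ?_⟩
    exact mul_le_mul_of_nonneg_right (by linarith [le_abs_self L₂']) dist_nonneg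
  obtain ⟨L₃, hp3, hL₃⟩ : ∃ L₃ : ℝ, 0 < L₃ ∧ ∀ t ∈ Icc (0 : ℝ) 1, ∀ x y, dist x y ≤ ε₃ →
      dist (G.φ t x) (G.φ t y) ≤ L₃ * dist x y := by
    refine ⟨|L₃'| + 1, by positivity, fun t ht x y h => (hL₃' t ht x y h).trans ?_⟩
    exact mul_le_mul_of_nonneg_right (by linarith [le_abs_self L₃']) dist_nonneg
  obtain ⟨L₄, hp4, hL₄⟩ : ∃ L₄ : ℝ, 0 < L₄ ∧ ∀ t ∈ Icc (0 : ℝ) ε₄, ∀ x,
      dist (G.φ t x) x ≤ L₄ * t := by
    refine ⟨|L₄'| + 1, by positivity, fun t ht x => (hL₄' t ht x).trans ?_⟩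
    exact mul_le_mul_of_nonneg_right (by linarith [le_abs_self L₄']) ht.1
  obtain ⟨L₅, hp5, hL₅⟩ : ∃ L₅ : ℝ, 0 < L₅ ∧ ∀ A x, ‖op3 A - op3 1‖ ≤ ε₅ →
      dist (G.act A x) x ≤ L₅ * ‖op3 A - op3 1‖ := by
    refine ⟨|L₅'| + 1, by positivity, fun A x h => (hL₅' A x h).trans ?_⟩
    exact mul_le_mul_of_nonneg_right (by linarith [le_abs_self L₅']) (norm_nonneg _)
  -- the constants of the conclusion
  set K₁ : ℝ := L₂ * L₄ with hK₁
  set K₂ : ℝ := 1 + L₁ * (L₃ * K₁) with hK₂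
  have hK₁0 : 0 < K₁ := mul_pos hp2 hp4
  have hK₂0 : 0 < K₂ := by positivity
  obtain ⟨ε, hε, h1, h2, h3, h4, h5, h6⟩ : ∃ ε : ℝ, 0 < ε ∧ ε ≤ ε₄ ∧ L₄ * ε ≤ ε₂ ∧
      K₁ * ε ≤ ε₃ ∧ L₃ * (K₁ * ε) ≤ ε₁ ∧ K₂ * ε ≤ 1 ∧ 8 * (K₂ * ε) ≤ ε₅ := by
    refine ⟨min ε₄ (min (ε₂ / L₄) (min (ε₃ / K₁) (min (ε₁ / (L₃ * K₁))
      (min (1 / K₂) (ε₅ / (8 * K₂)))))), ?_, ?_, ?_, ?_, ?_, ?_, ?_⟩
    · have q1 : 0 < ε₂ / L₄ := div_pos hε₂ hp4
      have q2 : 0 < ε₃ / K₁ := div_pos hε₃ hK₁0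
      have q3 : 0 < ε₁ / (L₃ * K₁) := div_pos hε₁ (mul_pos hp3 hK₁0)
      have q4 : 0 < 1 / K₂ := div_pos one_pos hK₂0
      have q5 : 0 < ε₅ / (8 * K₂) := div_pos hε₅ (by positivity)
      simp only [lt_min_iff]
      exact ⟨hε₄, q1, q2, q3, q4, q5⟩
    · exact min_le_left _ _
    · have := (min_le_right ε₄ (min (ε₂ / L₄) (min (ε₃ / K₁) (min (ε₁ / (L₃ * K₁))
        (min (1 / K₂) (ε₅ / (8 * K₂))))))).trans (min_le_left _ _)
      rw [le_div_iff₀ hp4] at this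
      linarith
    · have := (min_le_right ε₄ (min (ε₂ / L₄) (min (ε₃ / K₁) (min (ε₁ / (L₃ * K₁))
        (min (1 / K₂) (ε₅ / (8 * K₂))))))).trans ((min_le_right _ _).trans (min_le_left _ _))
      rw [le_div_iff₀ hK₁0] at this
      linarith
    · have := (min_le_right ε₄ (min (ε₂ / L₄) (min (ε₃ / K₁) (min (ε₁ / (L₃ * K₁))
        (min (1 / K₂) (ε₅ / (8 * K₂))))))).trans ((min_le_right _ _).trans
          ((min_le_right _ _).trans (min_le_left _ _)))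
      rw [le_div_iff₀ (mul_pos hp3 hK₁0)] at this
      linarith
    · have := (min_le_right ε₄ (min (ε₂ / L₄) (min (ε₃ / K₁) (min (ε₁ / (L₃ * K₁))
        (min (1 / K₂) (ε₅ / (8 * K₂))))))).trans ((min_le_right _ _).trans
          ((min_le_right _ _).trans ((min_le_right _ _).trans (min_le_left _ _))))
      rw [le_div_iff₀ hK₂0] at this
      linarith
    · have := (min_le_right ε₄ (min (ε₂ / L₄) (min (ε₃ / K₁) (min (ε₁ / (L₃ * K₁))
        (min (1 / K₂) (ε₅ / (8 * K₂))))))).trans ((min_le_right _ _).trans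
          ((min_le_right _ _).trans ((min_le_right _ _).trans (min_le_right _ _))))
      rw [le_div_iff₀ (by positivity)] at this
      linarith
  refine ⟨ε, hε, K₁ + L₅ * (8 * K₂), fun x c hc => ?_⟩
  set δ : ℝ := DL (G.p x) c with hδ
  have hδ0 : 0 ≤ δ := DL_nonneg _ _
  have hd0 : dist (G.p x 0) (c 0) ≤ δ := le_add_of_nonneg_right dist_nonneg
  have hd1 : dist (G.p x 1) (c 1) ≤ δ := le_add_of_nonneg_left dist_nonneg
  -- transport along the geodesic from `c 0` to `c' 0`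
  obtain ⟨x₁, hx₁, hxx⟩ : ∃ x₁, G.ft x₁ = c 0 ∧ dist x₁ x ≤ K₁ * δ := by
    obtain ⟨u, hu⟩ := G.E_surj x (c 0)
    have hun : ‖u‖ ≤ δ := by
      rw [← G.E_dist x u, hu, ← G.p_zero]
      exact hd0
    by_cases h0 : u = 0
    · refine ⟨x, ?_, ?_⟩
      · rw [← hu, h0, G.E_zero]
      · rw [dist_self]
        positivity
    · have hn : ‖u‖ ≠ 0 := norm_ne_zero_iff.2 h0
      have hu1 : ‖(‖u‖)⁻¹ • u‖ = 1 := by
        rw [norm_smul, norm_inv, norm_norm, inv_mul_cancel₀ hn]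
      obtain ⟨A, hA⟩ := exists_rot_e0 hu1
      refine ⟨G.act A⁻¹ (G.φ ‖u‖ (G.act A x)), ?_, ?_⟩
      · rw [G.ft_act, G.ft_φ, G.E_act, map_smul, hA, smul_smul, mul_inv_cancel₀ hn, one_smul, hu]
      · have h7 : dist (G.φ ‖u‖ (G.act A x)) (G.act A x) ≤ L₄ * ‖u‖ :=
          hL₄ _ ⟨norm_nonneg _, hun.trans (hc.trans h1)⟩ _
        have h8 : G.act A⁻¹ (G.act A x) = x := by
          rw [← G.act_mul, mul_inv_cancel, G.act_one]
        have h9 : dist (G.φ ‖u‖ (G.act A x)) (G.act A x) ≤ ε₂ := by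
          refine h7.trans (le_trans ?_ h2)
          exact mul_le_mul_of_nonneg_left (hun.trans hc) hp4.le
        have h10 := hL₂ A⁻¹ _ _ h9
        rw [h8] at h10
        refine h10.trans ?_
        rw [hK₁, mul_assoc]
        refine mul_le_mul_of_nonneg_left (h7.trans ?_) hp2.le
        exact mul_le_mul_of_nonneg_left hun hp4.le
  -- the direction
  obtain ⟨u₁, hu₁⟩ := G.E_surj x₁ (c 1)
  have hu₁n : ‖u₁‖ = 1 := by
    rw [← G.E_dist x₁ u₁, hu₁, hx₁, Ln.dist_eq]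
    norm_num
  have hflow : dist (G.φ 1 x₁) (G.φ 1 x) ≤ L₃ * (K₁ * δ) := by
    refine (hL₃ 1 ⟨zero_le_one, le_rfl⟩ x₁ x (hxx.trans ?_)).trans ?_
    · exact le_trans (mul_le_mul_of_nonneg_left hc hK₁0.le) h3
    · exact mul_le_mul_of_nonneg_left hxx hp3.le
  have hfoot : dist (G.E x₁ e0) (G.E x e0) ≤ L₁ * (L₃ * (K₁ * δ)) := by
    have h7 : ∀ z, G.E z e0 = G.ft (G.φ 1 z) := fun z => by rw [G.ft_φ, one_smul]
    rw [h7, h7]
    refine (hL₁ _ _ (hflow.trans ?_)).trans (mul_le_mul_of_nonneg_left hflow hp1.le)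
    refine le_trans ?_ h4
    exact mul_le_mul_of_nonneg_left (mul_le_mul_of_nonneg_left hc hK₁0.le) hp3.le
  have hu₁e : ‖u₁ - e0‖ ≤ K₂ * δ := by
    refine (F.exp x₁ u₁ e0).trans ?_
    rw [hu₁]
    have h7 : G.E x e0 = G.p x 1 := by rw [G.p_apply, one_smul]
    have h8 : dist (c 1) (G.E x e0) ≤ δ := by rw [h7, dist_comm]; exact hd1
    calc dist (c 1) (G.E x₁ e0) ≤ dist (c 1) (G.E x e0) + dist (G.E x e0) (G.E x₁ e0) :=
          dist_triangle _ _ _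
      _ ≤ δ + L₁ * (L₃ * (K₁ * δ)) := add_le_add h8 (by rw [dist_comm]; exact hfoot)
      _ = K₂ * δ := by rw [hK₂]; ring
  have hKε : K₂ * δ ≤ K₂ * ε := mul_le_mul_of_nonneg_left hc hK₂0.le
  obtain ⟨A, hA, hAn⟩ := exists_rot_near hu₁n (hu₁e.trans (hKε.trans h5))
  have hAn' : ‖op3 A - op3 1‖ ≤ 8 * (K₂ * δ) := hAn.trans (by linarith)
  refine ⟨G.act A x₁, G.had.line_unique one_pos ?_ ?_, ?_⟩
  · rw [G.p_zero, G.ft_act, hx₁]
  · rw [G.p_apply, one_smul, G.E_act, hA, hu₁]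
  · have h7 := hL₅ A x₁ (hAn'.trans (by linarith))
    have h8 : dist x x₁ ≤ K₁ * δ := by rw [dist_comm]; exact hxx
    have h9 : dist x₁ (G.act A x₁) ≤ L₅ * (8 * (K₂ * δ)) := by
      rw [dist_comm]
      exact h7.trans (mul_le_mul_of_nonneg_left hAn' hp5.le)
    calc dist x (G.act A x₁) ≤ dist x x₁ + dist x₁ (G.act A x₁) := dist_triangle _ _ _
      _ ≤ K₁ * δ + L₅ * (8 * (K₂ * δ)) := add_le_add h8 h9
      _ = (K₁ + L₅ * (8 * K₂)) * δ := by ring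

/-- **The metric facts from the elementary ones.** -/
theorem mf (F : MF0 G) : MF G where
  lip := F.flow_lip
  near := F.near
  rot_up := by
    obtain ⟨ε, hε, L, hL⟩ := F.act_up
    refine ⟨ε, hε, |L|, fun a x h => ?_⟩
    have h1 : ‖op3 (H76.ext a) - op3 1‖ ≤ ‖op a - op 1‖ := norm_ext_sub a
    calc dist (G.rot a x) x ≤ L * ‖op3 (H76.ext a) - op3 1‖ := hL _ x (h1.trans h)
      _ ≤ |L| * ‖op3 (H76.ext a) - op3 1‖ :=
          mul_le_mul_of_nonneg_right (le_abs_self L) (norm_nonneg _)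
      _ ≤ |L| * ‖op a - op 1‖ := mul_le_mul_of_nonneg_left h1 (abs_nonneg _)
  rot_low := by
    obtain ⟨ε, hε, L, hL⟩ := F.act_low
    exact ⟨ε, hε, L, fun a x h => (norm_ext_sub' a).trans (hL _ x h)⟩

end MF0

end Vale.Agent.P207.N4.H460
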